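import Vale.Agent.P171.First

open MeasureTheory

namespace Vale.Agent.Results.P171.FirstOrder

open Vale.Agent.P171

/-- For every inverse temperature `β > 0` there is a bounded, Borel measurable, integrable, stable
and tempered radial pair potential on Euclidean three-space whose pressure at `β` exists for all
activities and whose density jumps at some activity `z`: the left and right derivatives of the
pressure at `z` are `ρ₁ / z < ρ₂ / z` with `0 ≤ ρ₁`. -/
theorem result : ∀ β : ℝ, 0 < β → ∃ φ : ℝ → ℝ, Measurable φ ∧ (∃ M : ℝ, ∀ r, |φ r| ≤ M) ∧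
    Integrable (fun x : E3 => φ ‖x‖) ∧ Stable φ ∧ Tempered φ ∧
    ∃ Pi : ℝ → ℝ, IsPressure φ β Pi ∧ ∃ z ρ₁ ρ₂ : ℝ, 0 < z ∧ 0 ≤ ρ₁ ∧ ρ₁ < ρ₂ ∧
      HasDerivWithinAt Pi (ρ₁ / z) (Set.Iio z) z ∧
      HasDerivWithinAt Pi (ρ₂ / z) (Set.Ioi z) z := by
  intro β hβ
  obtain ⟨ν, a, ha, h⟩ := main_abstract P P_lsc (fun ν _ ha => P_nonneg ν ha)
    (fun ν _ ha => P_le ν ha) (fun _ _ _ ha h => P_mono ha h) (fun ν _ ha => trial_lower ν ha)
    P_zero_le (fun ν a t t1 τ ε ha ht htt hτ hs hε hyp =>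
      lp_upper ν a t t1 τ ε ha ht htt hτ hs hε hyp)
  obtain ⟨l, r, hlr, hl, hr⟩ := jump_of_not_diff (convex_P ha) h
  have hl0 : 0 ≤ l := by
    have h1 := hl.derivWithin (uniqueDiffWithinAt_Iio ν)
    rw [← h1]
    have hm : Monotone (fun s => P s a) := fun x y hxy => P_mono ha hxy
    exact (hm.monotoneOn (Set.Iic ν)).mono Set.Iio_subset_Iic_self |>.derivWithin_nonneg
  obtain ⟨M, hM⟩ := bounded_phi ha
  have hj := jump_activity (c := phi a 0 / 2) hl hr
  refine ⟨fun r => phi a r / β, (measurable_phi ha).div_const β, ⟨M / β, fun r => ?_⟩,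
    (integrable_phi ha).div_const β, stable_div (stable_phi ha) hβ,
    tempered_div (tempered_phi ha) hβ, _, isPressure_div (isPressure_phi ha) hβ,
    Real.exp (ν - phi a 0 / 2), l, r, Real.exp_pos _, hl0, hlr, hj.1, hj.2⟩
  rw [abs_div, abs_of_pos hβ]
  exact div_le_div_of_nonneg_right (hM r) hβ.le

end Vale.Agent.Results.P171.FirstOrder
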