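import Vale.Agent.P171.Final
import Vale.Agent.P171.Abstract

namespace Vale.Agent.Results.P171.PhaseTransition

open Vale.Agent.P171

/-- There is a stable, tempered, Borel measurable and locally bounded radial pair potential on
Euclidean three-space with a phase transition in the sense (a): at some inverse temperature
the pressure exists for all activities and is not differentiable at some activity. -/
theorem result : ∃ φ : ℝ → ℝ, Measurable φ ∧ LocallyBounded φ ∧ Stable φ ∧ Tempered φ ∧
    HasPhaseTransition φ := by
  obtain ⟨ν, a, ha, h⟩ := main_abstract P P_lsc (fun ν _ ha => P_nonneg ν ha)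
    (fun ν _ ha => P_le ν ha) (fun _ _ _ ha h => P_mono ha h) (fun ν _ ha => trial_lower ν ha)
    P_zero_le (fun ν a t t1 τ ε ha ht htt hτ hs hε hyp =>
      lp_upper ν a t t1 τ ε ha ht htt hτ hs hε hyp)
  exact ⟨phi a, measurable_phi ha, locallyBounded_phi ha, stable_phi ha, tempered_phi ha,
    hasPhaseTransition_of ha h⟩

end Vale.Agent.Results.P171.PhaseTransition
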